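import Vale.Agent.Snaky.Cert.Assembly

open Vale.Agent.Snaky

/-- If Maker's first cell is the origin and Breaker's first reply is any cell other than one of
the four orthogonal neighbours of the origin, then Maker has a winning strategy for Snaky on the
plane. -/
theorem Vale.Agent.Results.P062.AllButAdjacent.result (b : ℤ × ℤ)
    (h1 : b ≠ (1, 0)) (h2 : b ≠ (-1, 0)) (h3 : b ≠ (0, 1)) (h4 : b ≠ (0, -1)) :
    MakerWins {((0 : ℤ), (0 : ℤ))} {b} := by
  have key : MakerWins {centre} {(b.1 + 20, b.2 + 20)} := by
    refine reply_all _ ?_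
    obtain ⟨x, y⟩ := b
    rintro i (rfl | rfl | rfl | rfl) h
    · have e : cellOf 799 = (20, 19) := by decide
      rw [e, Prod.mk.injEq] at h
      exact h4 (by rw [Prod.mk.injEq]; simp only at h; omega)
    · have e : cellOf 839 = (19, 20) := by decide
      rw [e, Prod.mk.injEq] at h
      exact h2 (by rw [Prod.mk.injEq]; simp only at h; omega)
    · have e : cellOf 841 = (21, 20) := by decide
      rw [e, Prod.mk.injEq] at h
      exact h1 (by rw [Prod.mk.injEq]; simp only at h; omega)
    · have e : cellOf 881 = (20, 21) := by decide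
      rw [e, Prod.mk.injEq] at h
      exact h3 (by rw [Prod.mk.injEq]; simp only at h; omega)
  have := to_origin key
  have hb : place (-20, -20) (1, 0, 0, 1) (b.1 + 20, b.2 + 20) = b := by
    obtain ⟨x, y⟩ := b
    simp [place]
  rwa [hb] at this
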