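import Vale.Agent.Snaky.Cert.Assembly
import Vale.Agent.Snaky.Cert2.Assembly2

open Vale.Agent.Snaky

namespace Vale.Agent.Snaky

/-- Second level: every further Breaker stone except three. -/
theorem second_level (b : ℤ × ℤ) (h1 : b ≠ (-1, 0)) (h2 : b ≠ (-1, 1)) (h3 : b ≠ (0, 2)) :
    MakerWins {((0 : ℤ), (0 : ℤ)), ((0 : ℤ), (1 : ℤ))} {((1 : ℤ), (0 : ℤ)), b} := by
  have key : MakerWins {cellOf 881, cellOf 840} {cellOf 841, (b.1 + 20, b.2 + 20)} := by
    refine reply2_all _ ?_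
    obtain ⟨x, y⟩ := b
    rintro i (rfl | rfl | rfl) h
    · have e : cellOf 839 = (19, 20) := by decide
      rw [e, Prod.mk.injEq] at h
      exact h1 (by rw [Prod.mk.injEq]; simp only at h; omega)
    · have e : cellOf 880 = (19, 21) := by decide
      rw [e, Prod.mk.injEq] at h
      exact h2 (by rw [Prod.mk.injEq]; simp only at h; omega)
    · have e : cellOf 922 = (20, 22) := by decide
      rw [e, Prod.mk.injEq] at h
      exact h3 (by rw [Prod.mk.injEq]; simp only at h; omega)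
  have := to_origin2 key
  have hb : place (-20, -20) (1, 0, 0, 1) (b.1 + 20, b.2 + 20) = b := by
    obtain ⟨x, y⟩ := b
    simp [place]
  rwa [hb] at this

/-- First level: every Breaker stone except the four neighbours of the origin. -/
theorem first_level (b : ℤ × ℤ)
    (h1 : b ≠ (1, 0)) (h2 : b ≠ (-1, 0)) (h3 : b ≠ (0, 1)) (h4 : b ≠ (0, -1)) :
    MakerWins {((0 : ℤ), (0 : ℤ))} {b} := by
  have key : MakerWins {centre} {(b.1 + 20, b.2 + 20)} := by
    refine reply_all _ ?_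
    obtain ⟨x, y⟩ := b
    rintro i (rfl | rfl | rfl | rfl) h
    · have e : cellOf 799 = (20, 19) := by decide
      rw [e, Prod.mk.injEq] at h
      exact h4 (by rw [Prod.mk.injEq]; simp only at h; omega)
    · have e : cellOf 839 = (19, 20) := by decide
      rw [e, Prod.mk.injEq] at h
      exact h2 (by rw [Prod.mk.injEq]; simp only at h; omega)
    · have e : cellOf 841 = (21, 20) := by decide
      rw [e, Prod.mk.injEq] at h
      exact h1 (by rw [Prod.mk.injEq]; simp only at h; omega)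
    · have e : cellOf 881 = (20, 21) := by decide
      rw [e, Prod.mk.injEq] at h
      exact h3 (by rw [Prod.mk.injEq]; simp only at h; omega)
  have := to_origin key
  have hb : place (-20, -20) (1, 0, 0, 1) (b.1 + 20, b.2 + 20) = b := by
    obtain ⟨x, y⟩ := b
    simp [place]
  rwa [hb] at this

/-- Rotate a win against the stone (1,0) into a win against another neighbour. -/
theorem rotate_win {S S' : ℤ × ℤ × ℤ × ℤ} {b : ℤ × ℤ} (hS : S ∈ signedPerms)
    (hl : ∀ c, place (0, 0) S' (place (0, 0) S c) = c)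
    (hr : ∀ c, place (0, 0) S (place (0, 0) S' c) = c)
    (h0 : place (0, 0) S ((0 : ℤ), (0 : ℤ)) = ((0 : ℤ), (0 : ℤ)))
    (h1 : place (0, 0) S ((1 : ℤ), (0 : ℤ)) = b)
    (H : MakerWins {((0 : ℤ), (0 : ℤ))} {((1 : ℤ), (0 : ℤ))}) :
    MakerWins {((0 : ℤ), (0 : ℤ))} {b} := by
  have := MakerWins.image H (0, 0) (0, 0) hS hl hr
  rw [Finset.image_singleton, Finset.image_singleton, h0, h1] at this
  exact this

/-- The reduction of the whole game to three positions. -/
theorem reduction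
    (ha : MakerWins {((0 : ℤ), (0 : ℤ)), ((0 : ℤ), (1 : ℤ))} {((1 : ℤ), (0 : ℤ)), ((-1 : ℤ), (0 : ℤ))})
    (hb : MakerWins {((0 : ℤ), (0 : ℤ)), ((0 : ℤ), (1 : ℤ))} {((1 : ℤ), (0 : ℤ)), ((-1 : ℤ), (1 : ℤ))})
    (hc : MakerWins {((0 : ℤ), (0 : ℤ)), ((0 : ℤ), (1 : ℤ))} {((1 : ℤ), (0 : ℤ)), ((0 : ℤ), (2 : ℤ))}) :
    MakerWins ∅ ∅ := by
  have H : MakerWins {((0 : ℤ), (0 : ℤ))} {((1 : ℤ), (0 : ℤ))} := by
    refine MakerWins.move ((0 : ℤ), (1 : ℤ)) (by decide) (by decide) (fun b _ _ _ => ?_)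
    rw [Finset.pair_comm ((0 : ℤ), (1 : ℤ)) ((0 : ℤ), (0 : ℤ)), Finset.pair_comm b ((1 : ℤ), (0 : ℤ))]
    by_cases e1 : b = (-1, 0)
    · rw [e1]; exact ha
    by_cases e2 : b = (-1, 1)
    · rw [e2]; exact hb
    by_cases e3 : b = (0, 2)
    · rw [e3]; exact hc
    exact second_level b e1 e2 e3
  refine MakerWins.move ((0 : ℤ), (0 : ℤ)) (by simp) (by simp) (fun b _ _ _ => ?_)
  rw [insert_empty_eq, insert_empty_eq]
  by_cases e1 : b = (1, 0)
  · rw [e1]; exact H
  by_cases e2 : b = (-1, 0)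
  · rw [e2]
    exact rotate_win (S := (-1, 0, 0, -1)) (S' := (-1, 0, 0, -1)) (by decide)
      (fun c => by obtain ⟨x, y⟩ := c; simp [place]) (fun c => by obtain ⟨x, y⟩ := c; simp [place])
      (by decide) (by decide) H
  by_cases e3 : b = (0, 1)
  · rw [e3]
    exact rotate_win (S := (0, -1, 1, 0)) (S' := (0, 1, -1, 0)) (by decide)
      (fun c => by obtain ⟨x, y⟩ := c; simp [place]) (fun c => by obtain ⟨x, y⟩ := c; simp [place])
      (by decide) (by decide) H
  by_cases e4 : b = (0, -1)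
  · rw [e4]
    exact rotate_win (S := (0, 1, -1, 0)) (S' := (0, -1, 1, 0)) (by decide)
      (fun c => by obtain ⟨x, y⟩ := c; simp [place]) (fun c => by obtain ⟨x, y⟩ := c; simp [place])
      (by decide) (by decide) H
  exact first_level b e1 e2 e3 e4

end Vale.Agent.Snaky

/-- Maker wins Snaky on the plane against every first reply that is not orthogonally adjacent;
after Maker (0,0), Breaker (1,0), Maker (0,1) Maker wins against every Breaker reply except
(-1,0), (-1,1), (0,2); and if Maker also wins those three positions, then Maker wins from the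
empty board. -/
theorem Vale.Agent.Results.P062.ThreePositions.result :
    (∀ b : ℤ × ℤ, b ≠ (1, 0) → b ≠ (-1, 0) → b ≠ (0, 1) → b ≠ (0, -1) →
      MakerWins {((0 : ℤ), (0 : ℤ))} {b}) ∧
    (∀ b : ℤ × ℤ, b ≠ (-1, 0) → b ≠ (-1, 1) → b ≠ (0, 2) →
      MakerWins {((0 : ℤ), (0 : ℤ)), ((0 : ℤ), (1 : ℤ))} {((1 : ℤ), (0 : ℤ)), b}) ∧
    (MakerWins {((0 : ℤ), (0 : ℤ)), ((0 : ℤ), (1 : ℤ))} {((1 : ℤ), (0 : ℤ)), ((-1 : ℤ), (0 : ℤ))} →
      MakerWins {((0 : ℤ), (0 : ℤ)), ((0 : ℤ), (1 : ℤ))} {((1 : ℤ), (0 : ℤ)), ((-1 : ℤ), (1 : ℤ))} →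
      MakerWins {((0 : ℤ), (0 : ℤ)), ((0 : ℤ), (1 : ℤ))} {((1 : ℤ), (0 : ℤ)), ((0 : ℤ), (2 : ℤ))} →
      MakerWins ∅ ∅) :=
  ⟨first_level, second_level, reduction⟩
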