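import Vale.Agent.Snaky.Cert2.Levels
import Vale.Agent.Snaky.Cert2.R839

open Vale.Agent.Snaky

namespace Vale.Agent.Snaky

/-- The position with Breaker on (1,0) and (-1,0). -/
theorem third_left :
    MakerWins {((0 : ℤ), (0 : ℤ)), ((0 : ℤ), (1 : ℤ))} {((1 : ℤ), (0 : ℤ)), ((-1 : ℤ), (0 : ℤ))} := by
  have := to_origin2 Cert2.R839.reply
  have e : place (-20, -20) (1, 0, 0, 1) (cellOf 839) = ((-1 : ℤ), (0 : ℤ)) := by decide
  rwa [e] at this

end Vale.Agent.Snaky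

/-- Maker wins Snaky on the plane against every first reply that is not orthogonally adjacent;
after Maker (0,0), Breaker (1,0), Maker (0,1) Maker wins against every Breaker reply except
(-1,1), (0,2); and if Maker also wins those two positions, then Maker wins from the empty board. -/
theorem Vale.Agent.Results.P062.TwoPositions.result :
    (∀ b : ℤ × ℤ, b ≠ (1, 0) → b ≠ (-1, 0) → b ≠ (0, 1) → b ≠ (0, -1) →
      MakerWins {((0 : ℤ), (0 : ℤ))} {b}) ∧
    (∀ b : ℤ × ℤ, b ≠ (-1, 1) → b ≠ (0, 2) →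
      MakerWins {((0 : ℤ), (0 : ℤ)), ((0 : ℤ), (1 : ℤ))} {((1 : ℤ), (0 : ℤ)), b}) ∧
    (MakerWins {((0 : ℤ), (0 : ℤ)), ((0 : ℤ), (1 : ℤ))} {((1 : ℤ), (0 : ℤ)), ((-1 : ℤ), (1 : ℤ))} →
      MakerWins {((0 : ℤ), (0 : ℤ)), ((0 : ℤ), (1 : ℤ))} {((1 : ℤ), (0 : ℤ)), ((0 : ℤ), (2 : ℤ))} →
      MakerWins ∅ ∅) := by
  refine ⟨first_level, ?_, fun hb hc => reduction third_left hb hc⟩
  intro b h2 h3
  by_cases h1 : b = (-1, 0)
  · rw [h1]
    exact third_left
  · exact second_level b h1 h2 h3
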